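import Vale.Agent.P087.Main

namespace Vale.Agent.Results.P087.A_full

open Vale.Agent.P087

/-- There is a tuple `X` of self-adjoint elements of a von Neumann algebra with a faithful normal
tracial state, together with a free semicircular family `S` free from `X`, such that
`-∞ < χ(X) < χ*(X) < ∞`. -/
theorem result : ∃ (H : Type) (_ : NormedAddCommGroup H) (_ : InnerProductSpace ℂ H)
    (_ : CompleteSpace H) (M : VonNeumannAlgebra H) (Ω : H) (ι : Type) (_ : Fintype ι)
    (_ : DecidableEq ι) (_ : Nonempty ι) (X S : ι → H →L[ℂ] H),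
    IsTraceVector (M : Set (H →L[ℂ] H)) Ω ∧ (∀ j, X j ∈ M ∧ IsSelfAdjoint (X j) ∧ S j ∈ M) ∧
      IsFreeSemicircular (tau Ω) X S ∧
      ⊥ < chi Ω X ∧ chi Ω X < chiStar Ω X S ∧ chiStar Ω X S < ⊤ :=
  main

end Vale.Agent.Results.P087.A_full
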